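import Mathlib
import Vale.Agent.H96.P171.FinalJump

/-!
# P171: a stable, tempered radial pair potential whose pressure has a kink with a density jump

Hand-in. The definitions used by the statement (`E3`, `pairEnergy`, `box`, `canonicalZ`, `grandZ`,
`Stable`, `Tempered`) are in `Vale/Agent/H96/P171/Setting.lean`. The proof is
`Vale.Agent.H96.P171.final_jump` (see `Vale/Agent/H96/P171/PLAN.md`). Compared with
`A_PressureKink` the statement also says that the one-sided derivatives of the pressure at the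
activity `z0` exist and differ.
-/

open MeasureTheory

namespace Vale.Agent.Results.P171.B_DensityJump

open Vale.Agent.H96.P171

/-- There is a Borel, locally bounded, stable, tempered radial pair potential `φ` on Euclidean
three-space, nonpositive and `O(r^(-3))` on `[1,∞)` with `∫_1^∞ |φ(r)| r^2 dr < ∞`, such that at
`β = 1` the pressure `P(z) = lim_{L→∞} L^(-3) log ∑_N z^N Z_{L,N}(1)` exists for every activity
`z > 0` and, at some `z0 > 0`, is not differentiable: its left and right derivatives at `z0` exist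
and the left one is strictly smaller than the right one. -/
theorem result : ∃ φ : ℝ → ℝ,
    Measurable φ ∧
    (∀ a b : ℝ, 0 < a → a ≤ b → ∃ M : ℝ, ∀ r ∈ Set.Icc a b, |φ r| ≤ M) ∧
    Stable φ ∧ Tempered φ ∧
    (∀ r : ℝ, 1 ≤ r → φ r ≤ 0) ∧
    (∃ C : ℝ, ∀ r : ℝ, 1 ≤ r → |φ r| ≤ C / r ^ 3) ∧
    IntegrableOn (fun r : ℝ => φ r * r ^ 2) (Set.Ici 1) ∧
    (∀ (L : ℝ) (N : ℕ), IntegrableOn (fun x : Fin N → E3 => Real.exp (-(1 * pairEnergy φ N x)))
      {x : Fin N → E3 | ∀ i, x i ∈ box L}) ∧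
    (∀ L z : ℝ, 0 < z → Summable fun N : ℕ => z ^ N * canonicalZ φ 1 L N) ∧
    ∃ P : ℝ → ℝ,
      (∀ z : ℝ, 0 < z →
        Filter.Tendsto (fun L : ℝ => Real.log (grandZ φ 1 L z) / L ^ 3) Filter.atTop (nhds (P z))) ∧
      ∃ z0 : ℝ, 0 < z0 ∧ ¬ DifferentiableAt ℝ P z0 ∧
        ∃ dl dr : ℝ, dl < dr ∧ HasDerivWithinAt P dl (Set.Iio z0) z0 ∧
          HasDerivWithinAt P dr (Set.Ioi z0) z0 :=
  final_jump

end Vale.Agent.Results.P171.B_DensityJump
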