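import Mathlib
import Vale.Agent.H4.P171.ExplicitFamily

/-!
# P171: the first-order transition with the family of potentials written out

Hand-in. The theorem of `B_DensityJump` with the form of the potential in the statement:
`φ(r) = (r⁻¹)^4 1[r < 1] - ∑ t_n R_n^(-3) 1[r < R_n]`, `R_n = 4 (n+1)! + 2`, for some summable
sequence `t_n ≥ 0`. The definitions used by the statement (`E3`, `pairEnergy`, `box`,
`canonicalZ`, `grandZ`, `Stable`, `Tempered`) are in `Vale/Agent/H96/P171/Setting.lean`.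
-/

open MeasureTheory

namespace Vale.Agent.Results.P171.C_ExplicitWells

open Vale.Agent.H96.P171

/-- For some summable sequence `t_n ≥ 0`, the potential
`φ(r) = (r⁻¹)^4 1[r < 1] - ∑ t_n R_n^(-3) 1[r < R_n]`, `R_n = 4 (n+1)! + 2`, is Borel, locally
bounded, stable and tempered, and at `β = 1` its pressure exists for every activity `z > 0` and
has, at some `z0 > 0`, one-sided derivatives which differ (so it is not differentiable there). -/
theorem result : ∃ t : ℕ → ℝ, (∀ n, 0 ≤ t n) ∧ Summable t ∧ ∃ φ : ℝ → ℝ,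
    (∀ r : ℝ, φ r = (if r < 1 then (r⁻¹) ^ 4 else 0)
      - ∑' n : ℕ, t n * (if r < 4 * ((n + 1).factorial : ℝ) + 2
          then ((4 * ((n + 1).factorial : ℝ) + 2)⁻¹) ^ 3 else 0)) ∧
    Measurable φ ∧
    (∀ a b : ℝ, 0 < a → a ≤ b → ∃ M : ℝ, ∀ r ∈ Set.Icc a b, |φ r| ≤ M) ∧
    Stable φ ∧ Tempered φ ∧
    (∀ r : ℝ, 1 ≤ r → φ r ≤ 0) ∧
    (∃ C : ℝ, ∀ r : ℝ, 1 ≤ r → |φ r| ≤ C / r ^ 3) ∧
    IntegrableOn (fun r : ℝ => φ r * r ^ 2) (Set.Ici 1) ∧
    (∀ (L : ℝ) (N : ℕ), IntegrableOn (fun x : Fin N → E3 => Real.exp (-(1 * pairEnergy φ N x)))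
      {x : Fin N → E3 | ∀ i, x i ∈ box L}) ∧
    (∀ L z : ℝ, 0 < z → Summable fun N : ℕ => z ^ N * canonicalZ φ 1 L N) ∧
    ∃ P : ℝ → ℝ,
      (∀ z : ℝ, 0 < z →
        Filter.Tendsto (fun L : ℝ => Real.log (grandZ φ 1 L z) / L ^ 3) Filter.atTop (nhds (P z))) ∧
      ∃ z0 : ℝ, 0 < z0 ∧ ¬ DifferentiableAt ℝ P z0 ∧
        ∃ dl dr : ℝ, dl < dr ∧ HasDerivWithinAt P dl (Set.Iio z0) z0 ∧
          HasDerivWithinAt P dr (Set.Ioi z0) z0 :=
  Vale.Agent.H4.P171.explicit_family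

end Vale.Agent.Results.P171.C_ExplicitWells
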